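import Vale.Agent.P073.MM.H307.Lin
import Mathlib.MeasureTheory.Measure.Lebesgue.EqHaar

/-!
# P073: a fixed linear change of the domain
-/

namespace Vale.Agent.P073.MM.H767

open MeasureTheory Set Filter Topology Vale.Agent.P073.St
open Vale.Agent.P073.MM.H307
open scoped ContDiff

variable {p : ℝ} {Ω : Set V} {f : V → V} {F : V → Mat}

theorem pd_eq {φ : V → ℝ} (hφ : ContDiff ℝ ∞ φ) (x : V) (j : Fin 3) :
    pd φ x j = fderiv ℝ φ x (Pi.single j 1) := by
  have h1 : HasDerivAt (fun t : ℝ => Function.update x j t) (Pi.single j (1 : ℝ)) (x j) :=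
    hasDerivAt_update x j (x j)
  have h2 : HasFDerivAt φ (fderiv ℝ φ (Function.update x j (x j)))
      (Function.update x j (x j)) := ((hφ.differentiable (by simp)) _).hasFDerivAt
  have h3 := h2.comp_hasDerivAt (x j) h1
  rw [Function.update_eq_self] at h3
  exact h3.deriv

theorem map_restrict (hΩ : MeasurableSet Ω) (S : V ≃L[ℝ] V) :
    ∃ c : ENNReal, c ≠ ⊤ ∧
      Measure.map S.symm (volume.restrict (S '' Ω)) = c • (volume : Measure V).restrict Ω := by
  have hdet : LinearMap.det (S.symm : V →ₗ[ℝ] V) ≠ 0 := by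
    have := (LinearEquiv.isUnit_det' S.symm.toLinearEquiv)
    exact this.ne_zero
  refine ⟨ENNReal.ofReal |(LinearMap.det (S.symm : V →ₗ[ℝ] V))⁻¹|, ENNReal.ofReal_ne_top, ?_⟩
  have h1 := Measure.map_linearMap_addHaar_eq_smul_addHaar (volume : Measure V) hdet
  have h2 : (S '' Ω) = S.symm ⁻¹' Ω := by
    ext x
    constructor
    · rintro ⟨y, hy, rfl⟩
      simpa using hy
    · intro hx
      exact ⟨S.symm x, hx, by simp⟩
  have h3 : Measurable (S.symm : V → V) := S.symm.continuous.measurable
  rw [h2, ← Measure.restrict_map h3 hΩ]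
  have h4 : Measure.map (S.symm : V → V) (volume : Measure V) =
      ENNReal.ofReal |(LinearMap.det (S.symm : V →ₗ[ℝ] V))⁻¹| • (volume : Measure V) := h1
  rw [h4, Measure.restrict_smul]

/-- Row L3: a fixed linear change of the domain. -/
theorem sobolev_dom (hp : 1 ≤ p) (hΩ : St.IsBoundedDomain Ω) (S : V ≃L[ℝ] V) {A : Mat}
    (hA : ∀ v, S.symm v = ap A v) (hF : St.IsSobolev p Ω f F) :
    St.IsSobolev p (S '' Ω) (fun x => f (S.symm x)) (fun x => mm (F (S.symm x)) A) := by
  obtain ⟨c, hc, hmap⟩ := map_restrict hΩ.1.measurableSet S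
  have hemb : MeasurableEmbedding (S.symm : V → V) :=
    S.symm.toHomeomorph.measurableEmbedding
  have hmem : ∀ u : V → ℝ, InLp p Ω u → InLp p (S '' Ω) (fun x => u (S.symm x)) := by
    intro u hu
    have h1 : MemLp u (ENNReal.ofReal p) (Measure.map S.symm (volume.restrict (S '' Ω))) := by
      rw [hmap]
      exact MemLp.smul_measure hu hc
    exact h1.comp_of_map hemb.measurable.aemeasurable
  have hint : ∀ u : V → ℝ, int (S '' Ω) (fun x => u (S.symm x)) = c.toReal * int Ω u := by
    intro u
    unfold int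
    rw [← hemb.integral_map, hmap, integral_smul_measure, smul_eq_mul]
  refine ⟨fun i => hmem _ (hF.1 i), fun i k => ?_, fun φ hφ i k => ?_⟩
  · refine hmem (fun y => mm (F y) A i k) ?_
    exact memLp_finsetSum _ fun j _ => (hF.2.1 i j).mul_const (A j k)
  · have hs : ContDiff ℝ ∞ φ := contDiffOn_univ.1 hφ.1
    set ψ : V → ℝ := fun y => φ (S y) with hψ
    have hsψ : ContDiff ℝ ∞ ψ := hs.comp S.contDiff
    have hcψ : HasCompactSupport ψ := hφ.2.1.comp_homeomorph S.toHomeomorph
    have htest : IsTest Ω ψ := by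
      refine ⟨contDiffOn_univ.2 hsψ, hcψ, ?_⟩
      intro y hy
      have h1 : tsupport ψ ⊆ S ⁻¹' tsupport φ := by
        refine closure_minimal ?_ ((isClosed_tsupport φ).preimage S.continuous)
        intro z hz
        exact subset_tsupport φ hz
      obtain ⟨z, hz, hzy⟩ := hφ.2.2 (h1 hy)
      rwa [S.injective hzy] at hz
    have hpd : ∀ x, pd φ x k = ∑ j, A j k * pd ψ (S.symm x) j := by
      intro x
      have e1 : HasFDerivAt φ ((fderiv ℝ ψ (S.symm x)).comp (S.symm : V →L[ℝ] V)) x := by
        have h1 : HasFDerivAt ψ (fderiv ℝ ψ (S.symm x)) (S.symm x) :=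
          ((hsψ.differentiable (by simp)) _).hasFDerivAt
        have h2 := h1.comp x S.symm.hasFDerivAt
        have h3 : ψ ∘ S.symm = φ := by
          funext z
          simp [hψ]
        rwa [h3] at h2
      rw [pd_eq hs, e1.fderiv]
      show fderiv ℝ ψ (S.symm x) (S.symm (Pi.single k 1)) = _
      have h4 : S.symm (Pi.single k (1 : ℝ)) = ∑ j, A j k • (Pi.single j (1 : ℝ) : V) := by
        rw [hA]
        funext l
        simp [ap, Finset.sum_apply, Pi.single_apply]
      rw [h4, map_sum]
      refine Finset.sum_congr rfl fun j _ => ?_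
      rw [map_smul, smul_eq_mul, pd_eq hsψ]
    have e1 : int (S '' Ω) (fun x => φ x * mm (F (S.symm x)) A i k) =
        c.toReal * ∑ j, A j k * int Ω (fun y => ψ y * F y i j) := by
      have h1 : (fun x => φ x * mm (F (S.symm x)) A i k) =
          fun x => (fun y => ψ y * mm (F y) A i k) (S.symm x) := by
        funext x
        simp [hψ]
      rw [h1, hint (fun y => ψ y * mm (F y) A i k)]
      congr 1
      unfold int
      have : (fun y => ψ y * mm (F y) A i k) = fun y => ∑ j, A j k * (ψ y * F y i j) := by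
        funext y
        show ψ y * ∑ j, F y i j * A j k = _
        rw [Finset.mul_sum]
        exact Finset.sum_congr rfl fun j _ => by ring
      rw [this, integral_finsetSum _ fun j _ =>
        (int_mul hp (hF.2.1 i j) hsψ.continuous hcψ).const_mul _]
      exact Finset.sum_congr rfl fun j _ => integral_const_mul _ _
    have e2 : int (S '' Ω) (fun x => pd φ x k * f (S.symm x) i) =
        c.toReal * ∑ j, A j k * int Ω (fun y => pd ψ y j * f y i) := by
      have h1 : (fun x => pd φ x k * f (S.symm x) i) =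
          fun x => (fun y => (∑ j, A j k * pd ψ y j) * f y i) (S.symm x) := by
        funext x
        simp only [hpd]
      rw [h1, hint (fun y => (∑ j, A j k * pd ψ y j) * f y i)]
      congr 1
      unfold int
      have : (fun y => (∑ j, A j k * pd ψ y j) * f y i) =
          fun y => ∑ j, A j k * (pd ψ y j * f y i) := by
        funext y
        rw [Finset.sum_mul]
        exact Finset.sum_congr rfl fun j _ => by ring
      rw [this, integral_finsetSum _ fun j _ =>
        (int_mul hp (hF.1 i) (pd_cont hsψ j) (pd_comp hsψ hcψ j)).const_mul _]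
      exact Finset.sum_congr rfl fun j _ => integral_const_mul _ _
    rw [e1, e2, ← mul_neg, ← Finset.sum_neg_distrib]
    congr 1
    refine Finset.sum_congr rfl fun j _ => ?_
    rw [hF.2.2 ψ htest i j]
    ring

end Vale.Agent.P073.MM.H767
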